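import Vale.Agent.Lib.P037.Rect.Defs
import Vale.Agent.Lib.P037.BV.AvgCopies

/-!
MODULE R2 (P037 Rect).  FROZEN statements.  MECHANICAL PORT to rectangular patterns of
`BV.numCopies_col_le` and `BV.sum_repCopies_mul` (file `BV/AvgCopies.lean`): copy the two proofs (and their private
lemmas) and replace `Fin k → Fin k → Bool` by `Fin r → Fin c → Bool`; rows are indexed by `Fin r` (so the exponents
are `r`), columns by `Fin c`.  `BV.monotone_blk`, `BV.card_blk_le` are used unchanged.
-/

namespace Vale.Agent.Lib.P037.Rect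

open Vale.Agent.Lib.P037 Vale.Agent.Lib.P037.BV

theorem numCopies_col_leR {r c n : ℕ} (L : ℕ) (hL : 0 < L) (hLn : L ≤ n) (H : Fin r → Fin c → Bool)
    (hH : UnfoldableR H) (A : Fin n → Fin n → Bool) (s : Fin (n / L) → Fin L) :
    numCopiesR H (col L hL hLn A s) ≤ (2 * L) ^ r * repCopiesR L H A s := by
  classical
  unfold numCopiesR repCopiesR
  rw [Set.ncard_eq_toFinset_card', Set.ncard_eq_toFinset_card']
  apply Finset.card_le_mul_card_image_of_maps_to
    (f := fun p : (Fin r → Fin n) × (Fin c → Fin n) => (fun a => blk n L hL hLn (p.1 a), p.2))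
  · intro p hp
    rw [Set.mem_toFinset] at hp ⊢
    obtain ⟨hf, hg, hc⟩ := hp
    refine ⟨?_, hg, fun a b => hc a b⟩
    intro a a' haa'
    have hlt : a.val + 1 < r := lt_of_le_of_lt haa' a'.isLt
    have h1 : blk n L hL hLn (p.1 a) ≤ blk n L hL hLn (p.1 ⟨a.val + 1, hlt⟩) :=
      monotone_blk n L hL hLn (hf.monotone (Fin.le_def.mpr (by simp)))
    have h2 : blk n L hL hLn (p.1 ⟨a.val + 1, hlt⟩) ≤ blk n L hL hLn (p.1 a') :=
      monotone_blk n L hL hLn (hf.monotone (Fin.le_def.mpr haa'))
    have h3 : blk n L hL hLn (p.1 a) ≠ blk n L hL hLn (p.1 ⟨a.val + 1, hlt⟩) := by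
      intro heq
      obtain ⟨b, hb⟩ := hH.1 a ⟨a.val + 1, hlt⟩ rfl
      apply hb
      rw [← hc a b, ← hc ⟨a.val + 1, hlt⟩ b]
      show A (row n L (blk n L hL hLn (p.1 a)) (s (blk n L hL hLn (p.1 a)))) (p.2 b)
        = A (row n L (blk n L hL hLn (p.1 ⟨a.val + 1, hlt⟩))
            (s (blk n L hL hLn (p.1 ⟨a.val + 1, hlt⟩)))) (p.2 b)
      rw [heq]
    exact lt_of_lt_of_le (lt_of_le_of_ne h1 h3) h2
  · intro b _
    have hle : (Finset.filter (fun p : (Fin r → Fin n) × (Fin c → Fin n) =>
        (fun a => blk n L hL hLn (p.1 a), p.2) = b)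
        {p : (Fin r → Fin n) × (Fin c → Fin n) | IsCopyR H (col L hL hLn A s) p}.toFinset).card
        ≤ (Fintype.piFinset (fun a : Fin r => {i : Fin n | blk n L hL hLn i = b.1 a}.toFinset)).card := by
      apply Finset.card_le_card_of_injOn (fun p => p.1)
      · intro p hp
        have hp' := (Finset.mem_filter.mp hp).2
        rw [Finset.mem_coe, Fintype.mem_piFinset]
        intro a
        rw [Set.mem_toFinset]
        show blk n L hL hLn (p.1 a) = b.1 a
        rw [← hp']
      · intro p hp p' hp' heq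
        have h1 := (Finset.mem_filter.mp hp).2
        have h2 := (Finset.mem_filter.mp hp').2
        have h3 : p.2 = p'.2 := by
          have e1 := congrArg Prod.snd h1
          have e2 := congrArg Prod.snd h2
          simp only at e1 e2
          rw [e1, e2]
        exact Prod.ext heq h3
    refine le_trans hle ?_
    rw [Fintype.card_piFinset]
    calc ∏ a : Fin r, ({i : Fin n | blk n L hL hLn i = b.1 a}.toFinset).card
        ≤ ∏ _a : Fin r, 2 * L := by
          apply Finset.prod_le_prod'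
          intro a _
          rw [← Set.ncard_eq_toFinset_card']
          exact card_blk_le n L hL hLn (b.1 a)
      _ = (2 * L) ^ r := by simp

private lemma row_inj {n L : ℕ} {q q' : Fin (n / L)} {σ σ' : Fin L}
    (h : row n L q σ = row n L q' σ') : q = q' ∧ σ = σ' := by
  have hL : 0 < L := lt_of_le_of_lt (Nat.zero_le _) σ.isLt
  have h0 : q.val * L + σ.val = q'.val * L + σ'.val := congrArg Fin.val h
  have e1 : (q.val * L + σ.val) / L = q.val := by
    rw [Nat.add_comm, Nat.add_mul_div_right _ _ hL, Nat.div_eq_of_lt σ.isLt, Nat.zero_add]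
  have e2 : (q'.val * L + σ'.val) / L = q'.val := by
    rw [Nat.add_comm, Nat.add_mul_div_right _ _ hL, Nat.div_eq_of_lt σ'.isLt, Nat.zero_add]
  have hq : q.val = q'.val := by rw [← e1, ← e2, h0]
  refine ⟨Fin.ext hq, Fin.ext ?_⟩
  rw [hq] at h0
  omega

private lemma row_lt {n L : ℕ} {q q' : Fin (n / L)} (σ σ' : Fin L) (h : q < q') :
    row n L q σ < row n L q' σ' := by
  show q.val * L + σ.val < q'.val * L + σ'.val
  have h1 : (q.val + 1) * L ≤ q'.val * L := Nat.mul_le_mul_right L h
  have h2 := σ.isLt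
  have e : (q.val + 1) * L = q.val * L + L := by ring
  omega

theorem sum_repCopies_mulR {r c n : ℕ} (L : ℕ) (hL : 0 < L) (hLn : L ≤ n) (H : Fin r → Fin c → Bool)
    (A : Fin n → Fin n → Bool) :
    (∑ s : Fin (n / L) → Fin L, repCopiesR L H A s) * L ^ r ≤ L ^ (n / L) * numCopiesR H A := by
  classical
  set P : Finset ((Fin r → Fin (n / L)) × (Fin c → Fin n)) :=
    Finset.univ.filter (fun p => StrictMono p.1 ∧ StrictMono p.2) with hP
  -- repCopies as a sum of indicators
  have hrep : ∀ s : Fin (n / L) → Fin L, repCopiesR L H A s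
      = ∑ p ∈ P, if (∀ a b, A (row n L (p.1 a) (s (p.1 a))) (p.2 b) = H a b) then 1 else 0 := by
    intro s
    unfold repCopiesR
    rw [Set.ncard_eq_toFinset_card', ← Finset.card_filter, hP, Finset.filter_filter]
    congr 1
    ext p
    simp [and_assoc]
  have hN : ∀ p : (Fin r → Fin (n / L)) × (Fin c → Fin n),
      (∑ s : Fin (n / L) → Fin L,
        if (∀ a b, A (row n L (p.1 a) (s (p.1 a))) (p.2 b) = H a b) then 1 else 0)
      = {s : Fin (n / L) → Fin L | s ∘ p.1 ∈
          {u : Fin r → Fin L | ∀ a b, A (row n L (p.1 a) (u a)) (p.2 b) = H a b}}.ncard := by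
    intro p
    rw [Set.ncard_eq_toFinset_card', ← Finset.card_filter]
    congr 1
    ext s
    simp
  have hbase : ∀ p ∈ P, {s : Fin (n / L) → Fin L | s ∘ p.1 ∈
          {u : Fin r → Fin L | ∀ a b, A (row n L (p.1 a) (u a)) (p.2 b) = H a b}}.ncard * L ^ r
      = {u : Fin r → Fin L | ∀ a b, A (row n L (p.1 a) (u a)) (p.2 b) = H a b}.ncard * L ^ (n / L) := by
    intro p hp
    have hp' := (Finset.mem_filter.mp hp).2
    have := Blow.base_count (X := Fin L) p.1 hp'.1.injective
      {u : Fin r → Fin L | ∀ a b, A (row n L (p.1 a) (u a)) (p.2 b) = H a b}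
    simpa using this
  have hC : ∑ p ∈ P, {u : Fin r → Fin L | ∀ a b, A (row n L (p.1 a) (u a)) (p.2 b) = H a b}.ncard
      ≤ numCopiesR H A := by
    have e1 : ∀ p ∈ P, {u : Fin r → Fin L | ∀ a b, A (row n L (p.1 a) (u a)) (p.2 b) = H a b}.ncard
        = (Finset.univ.filter
            (fun u : Fin r → Fin L => ∀ a b, A (row n L (p.1 a) (u a)) (p.2 b) = H a b)).card := by
      intro p _
      rw [Set.ncard_eq_toFinset_card']
      congr 1
      ext u
      simp
    rw [Finset.sum_congr rfl e1, ← Finset.card_sigma]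
    unfold numCopiesR
    rw [Set.ncard_eq_toFinset_card']
    apply Finset.card_le_card_of_injOn
      (fun t : (_ : (Fin r → Fin (n / L)) × (Fin c → Fin n)) × (Fin r → Fin L) =>
        ((fun a => row n L (t.1.1 a) (t.2 a), t.1.2) : (Fin r → Fin n) × (Fin c → Fin n)))
    · intro t ht
      have ht' := Finset.mem_sigma.mp ht
      have h1 := (Finset.mem_filter.mp ht'.1).2
      have h2 := (Finset.mem_filter.mp ht'.2).2
      rw [Finset.mem_coe, Set.mem_toFinset]
      exact ⟨fun a a' haa' => row_lt _ _ (h1.1 haa'), h1.2, h2⟩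
    · intro t _ t' _ heq
      have h1 : (fun a => row n L (t.1.1 a) (t.2 a)) = fun a => row n L (t'.1.1 a) (t'.2 a) :=
        congrArg (fun z : (Fin r → Fin n) × (Fin c → Fin n) => z.1) heq
      have h2 : t.1.2 = t'.1.2 :=
        congrArg (fun z : (Fin r → Fin n) × (Fin c → Fin n) => z.2) heq
      have h3 : t.1.1 = t'.1.1 := funext fun a => (row_inj (congrFun h1 a)).1
      have h4 : t.2 = t'.2 := funext fun a => (row_inj (congrFun h1 a)).2
      obtain ⟨⟨Q, g⟩, u⟩ := t
      obtain ⟨⟨Q', g'⟩, u'⟩ := t'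
      simp only at h2 h3 h4
      subst h2 h3 h4
      rfl
  calc (∑ s : Fin (n / L) → Fin L, repCopiesR L H A s) * L ^ r
      = (∑ p ∈ P, ∑ s : Fin (n / L) → Fin L,
          if (∀ a b, A (row n L (p.1 a) (s (p.1 a))) (p.2 b) = H a b) then 1 else 0) * L ^ r := by
        rw [Finset.sum_congr rfl (fun s _ => hrep s), Finset.sum_comm]
    _ = ∑ p ∈ P, {s : Fin (n / L) → Fin L | s ∘ p.1 ∈
          {u : Fin r → Fin L | ∀ a b, A (row n L (p.1 a) (u a)) (p.2 b) = H a b}}.ncard * L ^ r := by
        rw [Finset.sum_mul]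
        exact Finset.sum_congr rfl (fun p _ => by rw [hN p])
    _ = ∑ p ∈ P,
          {u : Fin r → Fin L | ∀ a b, A (row n L (p.1 a) (u a)) (p.2 b) = H a b}.ncard * L ^ (n / L) :=
        Finset.sum_congr rfl hbase
    _ = L ^ (n / L) * ∑ p ∈ P,
          {u : Fin r → Fin L | ∀ a b, A (row n L (p.1 a) (u a)) (p.2 b) = H a b}.ncard := by
        rw [← Finset.sum_mul, Nat.mul_comm]
    _ ≤ L ^ (n / L) * numCopiesR H A := Nat.mul_le_mul_left _ hC

end Vale.Agent.Lib.P037.Rect
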