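import Vale.Agent.Lib.P037.Rect.Defs
import Vale.Agent.Lib.P037.Blow.FarMono

/-!
MODULE R4 (P037 Rect).  FROZEN statements (filled).  MECHANICAL PORT to rectangular `H0` of the four theorems of
`Blow/FarMono.lean` (`isFree_blow`, `isFar_of_blow`, `one_le_numCopies_of_isFar`, `copySet_ncard`): copy the proofs,
`H0 : Fin r → Fin c → Bool`, `φ : Fin k → Fin r`, `ψ : Fin k → Fin c`; the blow-up is written out as
`fun i j => H0 (φ i) (ψ j)` (a SQUARE `k × k` pattern, so the old `IsFree`, `IsFar` apply to it).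
-/

namespace Vale.Agent.Lib.P037.Rect

open Vale.Agent.Lib.P037 Vale.Agent.Lib.P037.BV

private theorem strictMono_surjInvR {k0 k : ℕ} (φ : Fin k → Fin k0) (hφ : Monotone φ)
    (hφs : Function.Surjective φ) : StrictMono (Function.surjInv hφs) := by
  intro a b hab
  by_contra hcon
  have hle : Function.surjInv hφs b ≤ Function.surjInv hφs a := not_lt.mp hcon
  have h1 := hφ hle
  rw [Function.surjInv_eq hφs, Function.surjInv_eq hφs] at h1
  exact absurd hab (not_lt.mpr h1)

theorem isFree_blowR {r c k n : ℕ} (H0 : Fin r → Fin c → Bool) (φ : Fin k → Fin r)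
    (ψ : Fin k → Fin c) (hφ : Monotone φ) (hφs : Function.Surjective φ) (hψ : Monotone ψ)
    (hψs : Function.Surjective ψ) (A : Fin n → Fin n → Bool) (h : IsFreeR H0 A) :
    IsFree (fun i j => H0 (φ i) (ψ j)) A := by
  intro p hp
  obtain ⟨h1, h2, h3⟩ := hp
  apply h (p.1 ∘ Function.surjInv hφs, p.2 ∘ Function.surjInv hψs)
  refine ⟨h1.comp (strictMono_surjInvR φ hφ hφs), h2.comp (strictMono_surjInvR ψ hψ hψs), ?_⟩
  intro i j
  have := h3 (Function.surjInv hφs i) (Function.surjInv hψs j)
  simp only [Function.surjInv_eq hφs, Function.surjInv_eq hψs] at this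
  simpa using this

theorem isFarR_of_blow {r c k n : ℕ} (H0 : Fin r → Fin c → Bool) (φ : Fin k → Fin r)
    (ψ : Fin k → Fin c) (hφ : Monotone φ) (hφs : Function.Surjective φ) (hψ : Monotone ψ)
    (hψs : Function.Surjective ψ) (A : Fin n → Fin n → Bool) (ε : ℝ)
    (h : IsFar (fun i j => H0 (φ i) (ψ j)) A ε) : IsFarR H0 A ε := by
  intro B hB
  exact h B (isFree_blowR H0 φ ψ hφ hφs hψ hψs B hB)

theorem one_le_numCopiesR_of_isFarR {r c n : ℕ} (H : Fin r → Fin c → Bool)
    (A : Fin n → Fin n → Bool) (ε : ℝ) (hn : 1 ≤ n) (hε : 0 < ε) (h : IsFarR H A ε) :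
    1 ≤ numCopiesR H A := by
  by_contra hcon
  have h0 : numCopiesR H A = 0 := by omega
  have hfree : IsFreeR H A := by
    intro p hp
    have hfin : {p | IsCopyR H A p}.Finite := Set.toFinite _
    have hpos : 0 < {p | IsCopyR H A p}.ncard := (Set.ncard_pos hfin).mpr ⟨p, hp⟩
    unfold numCopiesR at h0
    omega
  have h1 := h A hfree
  have h2 : numDiff A A = 0 := by
    unfold numDiff
    simp
  rw [h2] at h1
  have hnpos : (0 : ℝ) < (n : ℝ) ^ 2 := by
    have : (0 : ℝ) < n := by exact_mod_cast hn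
    positivity
  have : 0 < ε * (n : ℝ) ^ 2 := mul_pos hε hnpos
  simp at h1
  linarith

theorem copySetR_ncard {r c n : ℕ} (H0 : Fin r → Fin c → Bool) (A : Fin n → Fin n → Bool) :
    (copySetR H0 A).ncard = numCopiesR H0 A := by
  unfold numCopiesR
  apply Set.ncard_congr (fun g _ => (fun a => g (Sum.inl a), fun b => g (Sum.inr b)))
  · intro g hg
    exact hg
  · intro g g' _ _ hgg
    funext x
    have h1 := congrArg Prod.fst hgg
    have h2 := congrArg Prod.snd hgg
    cases x with
    | inl a => exact congrFun h1 a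
    | inr b => exact congrFun h2 b
  · intro p hp
    refine ⟨Sum.elim p.1 p.2, ?_, ?_⟩
    · show IsCopyR H0 A _
      simpa using hp
    · simp

end Vale.Agent.Lib.P037.Rect
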