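import Vale.Agent.Lib.P037.Rect.Defs

/-!
MODULE R3 (P037 Rect).  FROZEN statements.  Every pattern is an ordered blow-up of an unfoldable rectangular pattern.

`exists_fold` (merge equal adjacent terms of a finite sequence).  ROUTE: induction on `k` (statement for `k + 1`, peel
off the LAST term with `Fin.castSucc` / `Fin.last` / `Fin.lastCases` / `Fin.snoc`): if `x (last)` equals the last term
`y (last)` of the folded initial segment keep `r` and send `last` to the last index, otherwise append a new term.
ALTERNATIVE (explicit): `φ i := #{a : Fin k | a.val + 1 ≤ i.val ∧ x a ≠ x (a + 1)}`, `r := φ (last) + 1`.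

`exists_core`.  ROUTE: apply `exists_fold` to the rows `x i := H i` (values in `Fin k → Bool`): `r, φ, y`.  Apply it to
the columns `x' j := fun a => y a j` (values in `Fin r → Bool`): `c, ψ, z`.  `H0 a b := z b a`.
`H i j = y (φ i) j = z (ψ j) (φ i)`.  Adjacent rows: `y a ≠ y a'` gives `j` with `y a j ≠ y a' j`, take `b := ψ j`.
Adjacent columns: `z b ≠ z b'` gives `a` (`Function.ne_iff`).
-/

namespace Vale.Agent.Lib.P037.Rect

open Vale.Agent.Lib.P037 Vale.Agent.Lib.P037.BV

private theorem fold_aux {α : Type*} (k : ℕ) : ∀ x : Fin (k + 1) → α,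
    ∃ (r : ℕ) (φ : Fin (k + 1) → Fin r) (y : Fin r → α), 1 ≤ r ∧ Monotone φ ∧
      Function.Surjective φ ∧ (∀ i, x i = y (φ i)) ∧
      (∀ a a' : Fin r, a'.val = a.val + 1 → y a ≠ y a') ∧ (φ (Fin.last k)).val + 1 = r := by
  classical
  induction k with
  | zero =>
    intro x
    refine ⟨1, fun _ => 0, fun _ => x 0, le_rfl, fun _ _ _ => le_rfl, ?_, ?_, ?_, rfl⟩
    · intro b; exact ⟨0, Subsingleton.elim _ _⟩
    · intro i
      have : i = 0 := Fin.ext (by have := i.2; simp only [Fin.val_zero]; omega)
      rw [this]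
    · intro a a' h; have := a.2; have := a'.2; omega
  | succ k ih =>
    intro x
    obtain ⟨r, φ', y', hr, hmono, hsurj, hx, hadj, hlast⟩ := ih (fun j => x j.castSucc)
    have hxi : ∀ (i : Fin (k + 2)) (h : i.val < k + 1), x i = y' (φ' ⟨i.val, h⟩) := by
      intro i h
      have := hx ⟨i.val, h⟩
      simpa using this
    have hlast_of : ∀ i : Fin (k + 2), ¬ i.val < k + 1 → i = Fin.last (k + 1) := by
      intro i h
      apply Fin.ext
      have := i.2
      simp only [Fin.val_last]
      omega
    by_cases hc : x (Fin.last (k + 1)) = x (Fin.last k).castSucc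
    · refine ⟨r, fun i => if h : i.val < k + 1 then φ' ⟨i.val, h⟩ else φ' (Fin.last k), y', hr,
        ?_, ?_, ?_, hadj, ?_⟩
      · intro i j hij
        have hij' : i.val ≤ j.val := hij
        dsimp only
        split_ifs with h1 h2 h2
        · exact hmono (show (⟨i.val, h1⟩ : Fin (k + 1)) ≤ ⟨j.val, h2⟩ from hij')
        · exact hmono (Fin.le_last _)
        · omega
        · exact le_rfl
      · intro b
        obtain ⟨j, hj⟩ := hsurj b
        refine ⟨j.castSucc, ?_⟩
        have : (j.castSucc : Fin (k + 2)).val < k + 1 := j.2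
        simp only [this, dite_true]
        exact hj
      · intro i
        dsimp only
        split_ifs with h
        · exact hxi i h
        · rw [hlast_of i h, hc]
          exact hx (Fin.last k)
      · simp [hlast]
    · refine ⟨r + 1, fun i => if h : i.val < k + 1 then (φ' ⟨i.val, h⟩).castSucc else Fin.last r,
        fun a => if h : a.val < r then y' ⟨a.val, h⟩ else x (Fin.last (k + 1)), by omega,
        ?_, ?_, ?_, ?_, ?_⟩
      · intro i j hij
        have hij' : i.val ≤ j.val := hij
        dsimp only
        split_ifs with h1 h2 h2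
        · exact Fin.castSucc_le_castSucc_iff.2
            (hmono (show (⟨i.val, h1⟩ : Fin (k + 1)) ≤ ⟨j.val, h2⟩ from hij'))
        · exact Fin.le_last _
        · omega
        · exact le_rfl
      · intro b
        by_cases hb : b.val < r
        · obtain ⟨j, hj⟩ := hsurj ⟨b.val, hb⟩
          refine ⟨j.castSucc, ?_⟩
          have : (j.castSucc : Fin (k + 2)).val < k + 1 := j.2
          simp only [this, dite_true]
          apply Fin.ext
          have := congrArg Fin.val hj
          simpa using this
        · refine ⟨Fin.last (k + 1), ?_⟩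
          simp only [Fin.val_last, lt_irrefl, dite_false]
          apply Fin.ext
          have := b.2
          simp only [Fin.val_last]
          omega
      · intro i
        dsimp only
        by_cases h : i.val < k + 1
        · have h2 : ((φ' ⟨i.val, h⟩).castSucc : Fin (r + 1)).val < r := (φ' ⟨i.val, h⟩).2
          simp only [h, dite_true, h2]
          exact hxi i h
        · simp only [h, dite_false, Fin.val_last, lt_irrefl]
          rw [hlast_of i h]
      · intro a a' haa
        dsimp only
        have ha : a.val < r := by have := a'.2; omega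
        by_cases ha' : a'.val < r
        · simp only [ha, ha', dite_true]
          exact hadj _ _ haa
        · simp only [ha, ha', dite_true, dite_false]
          have e : (⟨a.val, ha⟩ : Fin r) = φ' (Fin.last k) := by
            apply Fin.ext
            have := a'.2
            simp only
            omega
          rw [e, ← hx (Fin.last k)]
          exact fun h => hc h.symm
      · simp

theorem exists_fold {α : Type*} {k : ℕ} (hk : 1 ≤ k) (x : Fin k → α) :
    ∃ (r : ℕ) (φ : Fin k → Fin r) (y : Fin r → α), 1 ≤ r ∧ Monotone φ ∧ Function.Surjective φ ∧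
      (∀ i, x i = y (φ i)) ∧ (∀ a a' : Fin r, a'.val = a.val + 1 → y a ≠ y a') := by
  obtain ⟨k, rfl⟩ : ∃ m, k = m + 1 := ⟨k - 1, by omega⟩
  obtain ⟨r, φ, y, h1, h2, h3, h4, h5, -⟩ := fold_aux k x
  exact ⟨r, φ, y, h1, h2, h3, h4, h5⟩

theorem exists_core {k : ℕ} (hk : 1 ≤ k) (H : Fin k → Fin k → Bool) :
    ∃ (r c : ℕ) (H0 : Fin r → Fin c → Bool) (φ : Fin k → Fin r) (ψ : Fin k → Fin c),
      1 ≤ r ∧ 1 ≤ c ∧ UnfoldableR H0 ∧ Monotone φ ∧ Function.Surjective φ ∧ Monotone ψ ∧
      Function.Surjective ψ ∧ H = fun i j => H0 (φ i) (ψ j) := by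
  obtain ⟨r, φ, y, hr, hφm, hφs, hy, hyadj⟩ := exists_fold hk (fun i => H i)
  obtain ⟨c, ψ, z, hc, hψm, hψs, hz, hzadj⟩ := exists_fold hk (fun j => fun a => y a j)
  refine ⟨r, c, fun a b => z b a, φ, ψ, hr, hc, ⟨?_, ?_⟩, hφm, hφs, hψm, hψs, ?_⟩
  · intro a a' haa
    obtain ⟨j, hj⟩ := Function.ne_iff.1 (hyadj a a' haa)
    refine ⟨ψ j, ?_⟩
    have e1 : y a j = z (ψ j) a := congrFun (hz j) a
    have e2 : y a' j = z (ψ j) a' := congrFun (hz j) a'
    show z (ψ j) a ≠ z (ψ j) a'
    rw [← e1, ← e2]
    exact hj
  · intro b b' hbb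
    exact Function.ne_iff.1 (hzadj b b' hbb)
  · funext i j
    have e1 : H i j = y (φ i) j := congrFun (hy i) j
    have e2 : y (φ i) j = z (ψ j) (φ i) := congrFun (hz j) (φ i)
    rw [e1, e2]

end Vale.Agent.Lib.P037.Rect
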