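import Mathlib
import Vale.Agent.Lib.P037.BV.Defs
import Vale.Agent.Lib.P037.Blow.Defs

/-!
P037: rectangular patterns `H : Fin r → Fin c → Bool` in square hosts.  Definitions
(verbatim analogues of `IsCopy`, `numCopies`, `IsFree`, `IsFar`, `BV.Unfoldable`, `BV.repCopies`, `Blow.copySet`).
-/

namespace Vale.Agent.Lib.P037.Rect

open Vale.Agent.Lib.P037 Vale.Agent.Lib.P037.BV

def IsCopyR {r c n : ℕ} (H : Fin r → Fin c → Bool) (A : Fin n → Fin n → Bool)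
    (p : (Fin r → Fin n) × (Fin c → Fin n)) : Prop :=
  StrictMono p.1 ∧ StrictMono p.2 ∧ ∀ i j, A (p.1 i) (p.2 j) = H i j

noncomputable def numCopiesR {r c n : ℕ} (H : Fin r → Fin c → Bool) (A : Fin n → Fin n → Bool) : ℕ :=
  Set.ncard {p : (Fin r → Fin n) × (Fin c → Fin n) | IsCopyR H A p}

def IsFreeR {r c n : ℕ} (H : Fin r → Fin c → Bool) (A : Fin n → Fin n → Bool) : Prop :=
  ∀ p : (Fin r → Fin n) × (Fin c → Fin n), ¬ IsCopyR H A p

def IsFarR {r c n : ℕ} (H : Fin r → Fin c → Bool) (A : Fin n → Fin n → Bool) (ε : ℝ) : Prop :=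
  ∀ B : Fin n → Fin n → Bool, IsFreeR H B → ε * (n : ℝ) ^ 2 ≤ (numDiff A B : ℝ)

def UnfoldableR {r c : ℕ} (H : Fin r → Fin c → Bool) : Prop :=
  (∀ a a' : Fin r, a'.val = a.val + 1 → ∃ b, H a b ≠ H a' b) ∧
  (∀ b b' : Fin c, b'.val = b.val + 1 → ∃ a, H a b ≠ H a b')

noncomputable def repCopiesR {r c n : ℕ} (L : ℕ) (H : Fin r → Fin c → Bool)
    (A : Fin n → Fin n → Bool) (s : Fin (n / L) → Fin L) : ℕ :=
  Set.ncard {p : (Fin r → Fin (n / L)) × (Fin c → Fin n) |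
    StrictMono p.1 ∧ StrictMono p.2 ∧ ∀ a b, A (row n L (p.1 a) (s (p.1 a))) (p.2 b) = H a b}

def copySetR {r c n : ℕ} (H0 : Fin r → Fin c → Bool) (A : Fin n → Fin n → Bool) :
    Set ((Fin r ⊕ Fin c) → Fin n) :=
  {x | IsCopyR H0 A (x ∘ Sum.inl, x ∘ Sum.inr)}

end Vale.Agent.Lib.P037.Rect
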