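import Vale.Agent.Lib.P037.Rect.Defs
import Vale.Agent.Lib.P037.BV.OneDim
import Vale.Agent.Lib.P037.BV.Retract

/-!
MODULE R1 (P037 Rect).  FROZEN statements.  MECHANICAL PORT to rectangular patterns of
`BV.copy_of_collapse` (file `BV/Retract.lean`) and `BV.few_rows_nat` (file `BV/FewRowsNat.lean`):
copy the two proofs and replace `Fin k → Fin k → Bool` by `Fin r → Fin c → Bool`, `IsCopy` by `IsCopyR`, etc.
Rows are indexed by `Fin r`, columns by `Fin c`; types `τ : Fin r → Fin T`; `hit_or_many` is applied with `k := r`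
(rows, hitting set `≤ r * w ≤ (r + c) * w`) and with `k := c` (columns, `≤ c * w ≤ (r + c) * w`);
`w ^ (r + c) = w ^ r * w ^ c`.  `exists_retract`, `numDiff_collapse_le` are used unchanged.
-/

namespace Vale.Agent.Lib.P037.Rect

open Vale.Agent.Lib.P037 Vale.Agent.Lib.P037.BV

private theorem strictMono_of_adjacentR {k n : ℕ} (f : Fin k → Fin n) (hf : Monotone f)
    (h : ∀ a a' : Fin k, a'.val = a.val + 1 → f a ≠ f a') : StrictMono f := by
  intro a b hab
  have hlt : a.val + 1 < k := lt_of_le_of_lt (Nat.succ_le_of_lt hab) b.isLt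
  have h1 : f a ≤ f ⟨a.val + 1, hlt⟩ := hf (by rw [Fin.le_def]; simp)
  have h2 : f ⟨a.val + 1, hlt⟩ ≤ f b := hf (by rw [Fin.le_def]; exact Nat.succ_le_of_lt hab)
  exact lt_of_lt_of_le (lt_of_le_of_ne h1 (h a ⟨a.val + 1, hlt⟩ rfl)) h2

theorem copy_of_collapseR {r c n : ℕ} (H : Fin r → Fin c → Bool) (hH : UnfoldableR H)
    (A : Fin n → Fin n → Bool) (ρ γ : Fin n → Fin n) (hρ : Monotone ρ) (hγ : Monotone γ)
    (p : (Fin r → Fin n) × (Fin c → Fin n)) (hp : IsCopyR H (fun i j => A (ρ i) (γ j)) p) :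
    IsCopyR H A (ρ ∘ p.1, γ ∘ p.2) := by
  obtain ⟨hf, hg, hval⟩ := hp
  refine ⟨?_, ?_, fun i j => hval i j⟩
  · apply strictMono_of_adjacentR _ (hρ.comp hf.monotone)
    intro a a' haa heq
    obtain ⟨b, hb⟩ := hH.1 a a' haa
    apply hb
    have h1 := hval a b
    have h2 := hval a' b
    simp only [Function.comp] at heq
    simp only at h1 h2
    rw [← h1, ← h2, heq]
  · apply strictMono_of_adjacentR _ (hγ.comp hg.monotone)
    intro b b' hbb heq
    obtain ⟨a, ha⟩ := hH.2 b b' hbb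
    apply ha
    have h1 := hval a b
    have h2 := hval a b'
    simp only [Function.comp] at heq
    simp only at h1 h2
    rw [← h1, ← h2, heq]

theorem few_rows_natR {r c n T : ℕ} (H : Fin r → Fin c → Bool) (hH : UnfoldableR H)
    (A : Fin n → Fin n → Bool) (t : Fin n → Fin T) (ht : ∀ i i', t i = t i' → A i = A i')
    (w : ℕ) (hw : T ^ r * ((r + c) * w) < n) :
    w ^ (r + c) ≤ numCopiesR H A ∨
      ∃ B : Fin n → Fin n → Bool, IsFreeR H B ∧ numDiff A B ≤ T ^ r * ((r + c) * w) * n := by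
  classical
  set SR : (Fin r → Fin T) → Fin r → Set (Fin n) := fun τ a => {i | t i = τ a} with hSR
  set SC : (Fin r → Fin T) → Fin c → Set (Fin n) :=
    fun τ b => {j | ∀ a i, t i = τ a → A i j = H a b} with hSC
  by_cases hbig : ∃ τ, w ^ r ≤ {f : Fin r → Fin n | StrictMono f ∧ ∀ a, f a ∈ SR τ a}.ncard ∧
      w ^ c ≤ {f : Fin c → Fin n | StrictMono f ∧ ∀ a, f a ∈ SC τ a}.ncard
  · left
    obtain ⟨τ, h1, h2⟩ := hbig
    have hsub : {f : Fin r → Fin n | StrictMono f ∧ ∀ a, f a ∈ SR τ a} ×ˢ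
        {f : Fin c → Fin n | StrictMono f ∧ ∀ a, f a ∈ SC τ a} ⊆ {p | IsCopyR H A p} := by
      rintro ⟨f, g⟩ ⟨⟨hf, hf2⟩, ⟨hg, hg2⟩⟩
      exact ⟨hf, hg, fun a b => hg2 b a (f a) (hf2 a)⟩
    calc w ^ (r + c) = w ^ r * w ^ c := by rw [pow_add]
      _ ≤ {f : Fin r → Fin n | StrictMono f ∧ ∀ a, f a ∈ SR τ a}.ncard *
          {f : Fin c → Fin n | StrictMono f ∧ ∀ a, f a ∈ SC τ a}.ncard := Nat.mul_le_mul h1 h2
      _ = ({f : Fin r → Fin n | StrictMono f ∧ ∀ a, f a ∈ SR τ a} ×ˢ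
          {f : Fin c → Fin n | StrictMono f ∧ ∀ a, f a ∈ SC τ a}).ncard := (Set.ncard_prod).symm
      _ ≤ numCopiesR H A := Set.ncard_le_ncard hsub (Set.toFinite _)
  · right
    have hbig' : ∀ τ, w ^ r ≤ {f : Fin r → Fin n | StrictMono f ∧ ∀ a, f a ∈ SR τ a}.ncard →
        ¬ w ^ c ≤ {f : Fin c → Fin n | StrictMono f ∧ ∀ a, f a ∈ SC τ a}.ncard :=
      fun τ h1 h2 => hbig ⟨τ, h1, h2⟩
    have hrw : r * w ≤ (r + c) * w := Nat.mul_le_mul_right w (Nat.le_add_right r c)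
    have hcw : c * w ≤ (r + c) * w := Nat.mul_le_mul_right w (Nat.le_add_left c r)
    have hch : ∀ τ : Fin r → Fin T, ∃ DD : Finset (Fin n) × Finset (Fin n),
        DD.1.card + DD.2.card ≤ (r + c) * w ∧
        ((∀ f : Fin r → Fin n, StrictMono f → (∀ a, f a ∈ SR τ a) → ∃ a, f a ∈ DD.1) ∨
         (∀ f : Fin c → Fin n, StrictMono f → (∀ a, f a ∈ SC τ a) → ∃ a, f a ∈ DD.2)) := by
      intro τ
      rcases hit_or_many (SR τ) w with h1 | ⟨D, hD, hhit⟩
      · rcases hit_or_many (SC τ) w with h2 | ⟨D, hD, hhit⟩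
        · exact absurd h2 (hbig' τ h1)
        · exact ⟨(∅, D), by simpa using hD.trans hcw, Or.inr hhit⟩
      · exact ⟨(D, ∅), by simpa using hD.trans hrw, Or.inl hhit⟩
    choose DD hcard hhit using hch
    set DR : Finset (Fin n) := Finset.univ.biUnion fun τ => (DD τ).1 with hDR
    set DC : Finset (Fin n) := Finset.univ.biUnion fun τ => (DD τ).2 with hDC
    have hsum : DR.card + DC.card ≤ T ^ r * ((r + c) * w) := by
      calc DR.card + DC.card ≤ ∑ τ, (DD τ).1.card + ∑ τ, (DD τ).2.card :=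
            Nat.add_le_add Finset.card_biUnion_le Finset.card_biUnion_le
        _ = ∑ τ, ((DD τ).1.card + (DD τ).2.card) := Finset.sum_add_distrib.symm
        _ ≤ ∑ _τ : Fin r → Fin T, (r + c) * w := Finset.sum_le_sum fun τ _ => hcard τ
        _ = T ^ r * ((r + c) * w) := by simp [Finset.card_univ]
    obtain ⟨ρ, hρm, hρD, hρid⟩ := exists_retract DR (by omega)
    obtain ⟨γ, hγm, hγD, hγid⟩ := exists_retract DC (by omega)
    refine ⟨fun i j => A (ρ i) (γ j), ?_, ?_⟩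
    · intro p hp
      obtain ⟨hf, hg, hval⟩ := copy_of_collapseR H hH A ρ γ hρm hγm p hp
      rcases hhit (fun a => t (ρ (p.1 a))) with h | h
      · obtain ⟨a, ha⟩ := h (ρ ∘ p.1) hf (fun a => rfl)
        exact hρD (p.1 a) (Finset.mem_biUnion.2 ⟨_, Finset.mem_univ _, ha⟩)
      · obtain ⟨b, hb⟩ := h (γ ∘ p.2) hg (fun b a i hi => by
          have h3 : A i = A (ρ (p.1 a)) := ht _ _ hi
          rw [h3]
          exact hval a b)
        exact hγD (p.2 b) (Finset.mem_biUnion.2 ⟨_, Finset.mem_univ _, hb⟩)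
    · calc numDiff A (fun i j => A (ρ i) (γ j)) ≤ (DR.card + DC.card) * n :=
            numDiff_collapse_le A ρ γ DR DC hρid hγid
        _ ≤ T ^ r * ((r + c) * w) * n := Nat.mul_le_mul_right n hsum

end Vale.Agent.Lib.P037.Rect
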