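import Vale.Agent.Lib.P037.Rect.Defs
import Vale.Agent.Lib.P037.Blow.Sort

/-!
MODULE R5 (P037 Rect).  FROZEN statement.  MECHANICAL PORT to rectangular `H0` of `Blow.sorted_count`
(file `Blow/Sort.lean`, with its three private lemmas): copy the proofs, `H0 : Fin r → Fin c → Bool`,
`φ : Fin k → Fin r`, `ψ : Fin k → Fin c`, `copySet` becomes `copySetR`, `blow H0 φ ψ` becomes
`fun i j => H0 (φ i) (ψ j)`.
-/

namespace Vale.Agent.Lib.P037.Rect

open Vale.Agent.Lib.P037 Vale.Agent.Lib.P037.BV Vale.Agent.Lib.P037.Blow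

private lemma exists_section {k0 k : ℕ} (φ : Fin k → Fin k0) (hφs : Function.Surjective φ)
    (i i' : Fin k) (h : φ i ≠ φ i' ∨ i = i') :
    ∃ s : Fin k0 → Fin k, (∀ a, φ (s a) = a) ∧ s (φ i) = i ∧ s (φ i') = i' := by
  classical
  refine ⟨Function.update (Function.update (Function.surjInv hφs) (φ i) i) (φ i') i', ?_, ?_, ?_⟩
  · intro a
    by_cases h1 : a = φ i'
    · subst h1; simp
    · by_cases h2 : a = φ i
      · subst h2; simp [Function.update_of_ne h1]
      · simp [Function.update_of_ne h1, Function.update_of_ne h2, Function.surjInv_eq]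
  · rcases h with h | h
    · simp [Function.update_of_ne h]
    · subst h; simp
  · simp

private lemma copy_of_sections {r c k n : ℕ} {H0 : Fin r → Fin c → Bool} {φ : Fin k → Fin r}
    {ψ : Fin k → Fin c}
    {A : Fin n → Fin n → Bool} {g : (Fin k ⊕ Fin k) → Fin n}
    (hg : g ∈ GS (Sum.map φ ψ) (copySetR H0 A) Set.univ)
    (s : Fin r → Fin k) (t : Fin c → Fin k) (hs : ∀ a, φ (s a) = a) (ht : ∀ a, ψ (t a) = a) :
    IsCopyR H0 A ((g ∘ Sum.inl) ∘ s, (g ∘ Sum.inr) ∘ t) := by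
  have := hg (Sum.elim (Sum.inl ∘ s) (Sum.inr ∘ t))
    (by rintro (a | a) <;> simp [hs, ht]) (fun _ => Set.mem_univ _)
  exact this

private lemma comp_sort_eq {k0 k n : ℕ} (φ : Fin k → Fin k0) (hφ : Monotone φ)
    (R : Fin k → Fin n) (hR : Function.Injective R)
    (h2 : ∀ i i', φ i < φ i' → R i < R i') :
    StrictMono (R ∘ Tuple.sort R) ∧ φ ∘ Tuple.sort R = φ := by
  have hsm : StrictMono (R ∘ Tuple.sort R) :=
    (Tuple.monotone_sort R).strictMono_of_injective (hR.comp (Tuple.sort R).injective)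
  refine ⟨hsm, ?_⟩
  have hmono : Monotone (φ ∘ Tuple.sort R) := by
    intro a b hab
    rcases hab.eq_or_lt with rfl | hlt
    · exact le_rfl
    · by_contra hcon
      have h3 := h2 _ _ (not_le.mp hcon)
      have h4 := hsm hlt
      exact absurd h3 (not_lt.mpr h4.le)
  have := Tuple.unique_monotone (f := φ) (σ := Tuple.sort R) (τ := 1) hmono (by simpa using hφ)
  simpa using this

theorem sorted_countR {r c k n : ℕ} (H0 : Fin r → Fin c → Bool) (φ : Fin k → Fin r)
    (ψ : Fin k → Fin c) (hφ : Monotone φ) (hφs : Function.Surjective φ) (hψ : Monotone ψ)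
    (hψs : Function.Surjective ψ) (A : Fin n → Fin n → Bool) :
    {g : (Fin k ⊕ Fin k) → Fin n | g ∈ GS (Sum.map φ ψ) (copySetR H0 A) Set.univ ∧
        (Function.Injective (g ∘ Sum.inl) ∧ Function.Injective (g ∘ Sum.inr))}.ncard
      ≤ (k.factorial) ^ 2 * numCopies (fun i j => H0 (φ i) (ψ j)) A := by
  classical
  set T : Set (((Fin k → Fin n) × (Fin k → Fin n)) × (Equiv.Perm (Fin k) × Equiv.Perm (Fin k))) :=
    {p | IsCopy (fun i j => H0 (φ i) (ψ j)) A p} ×ˢ Set.univ with hT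
  have hTcard : T.ncard = (k.factorial) ^ 2 * numCopies (fun i j => H0 (φ i) (ψ j)) A := by
    rw [hT, Set.ncard_prod, Set.ncard_univ, Nat.card_eq_fintype_card, Fintype.card_prod,
      Fintype.card_perm, Fintype.card_fin, numCopies]
    ring
  rw [← hTcard]
  refine Set.ncard_le_ncard_of_injOn
    (fun g => (((g ∘ Sum.inl) ∘ Tuple.sort (g ∘ Sum.inl), (g ∘ Sum.inr) ∘ Tuple.sort (g ∘ Sum.inr)),
      (Tuple.sort (g ∘ Sum.inl), Tuple.sort (g ∘ Sum.inr)))) ?_ ?_ (Set.toFinite _)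
  · rintro g ⟨hg, hR, hC⟩
    obtain ⟨s0, hs0⟩ : ∃ s : Fin r → Fin k, ∀ a, φ (s a) = a :=
      ⟨Function.surjInv hφs, Function.surjInv_eq hφs⟩
    obtain ⟨t0, ht0⟩ : ∃ s : Fin c → Fin k, ∀ a, ψ (s a) = a :=
      ⟨Function.surjInv hψs, Function.surjInv_eq hψs⟩
    have h2R : ∀ i i', φ i < φ i' → (g ∘ Sum.inl) i < (g ∘ Sum.inl) i' := by
      intro i i' hlt
      obtain ⟨s, hs, hsi, hsi'⟩ := exists_section φ hφs i i' (Or.inl hlt.ne)
      have := (copy_of_sections hg s t0 hs ht0).1 hlt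
      simpa [hsi, hsi'] using this
    have h2C : ∀ i i', ψ i < ψ i' → (g ∘ Sum.inr) i < (g ∘ Sum.inr) i' := by
      intro i i' hlt
      obtain ⟨t, ht, hti, hti'⟩ := exists_section ψ hψs i i' (Or.inl hlt.ne)
      have := (copy_of_sections hg s0 t hs0 ht).2.1 hlt
      simpa [hti, hti'] using this
    have h3 : ∀ i j, A ((g ∘ Sum.inl) i) ((g ∘ Sum.inr) j) = H0 (φ i) (ψ j) := by
      intro i j
      obtain ⟨s, hs, hsi, -⟩ := exists_section φ hφs i i (Or.inr rfl)
      obtain ⟨t, ht, htj, -⟩ := exists_section ψ hψs j j (Or.inr rfl)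
      have := (copy_of_sections hg s t hs ht).2.2 (φ i) (ψ j)
      simpa [hsi, htj] using this
    obtain ⟨hsmR, hφR⟩ := comp_sort_eq φ hφ _ hR h2R
    obtain ⟨hsmC, hψC⟩ := comp_sort_eq ψ hψ _ hC h2C
    refine ⟨⟨hsmR, hsmC, ?_⟩, Set.mem_univ _⟩
    intro i j
    have e1 : φ (Tuple.sort (g ∘ Sum.inl) i) = φ i := congrFun hφR i
    have e2 : ψ (Tuple.sort (g ∘ Sum.inr) j) = ψ j := congrFun hψC j
    have := h3 (Tuple.sort (g ∘ Sum.inl) i) (Tuple.sort (g ∘ Sum.inr) j)
    rw [e1, e2] at this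
    exact this
  · rintro g - g' - hgg
    simp only [Prod.mk.injEq] at hgg
    obtain ⟨⟨h1, h2⟩, h3, h4⟩ := hgg
    rw [← h3] at h1
    rw [← h4] at h2
    have hl : g ∘ Sum.inl = g' ∘ Sum.inl := by
      funext i
      have := congrFun h1 ((Tuple.sort (g ∘ Sum.inl)).symm i)
      simpa using this
    have hr : g ∘ Sum.inr = g' ∘ Sum.inr := by
      funext i
      have := congrFun h2 ((Tuple.sort (g ∘ Sum.inr)).symm i)
      simpa using this
    funext x
    rcases x with x | x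
    · exact congrFun hl x
    · exact congrFun hr x

end Vale.Agent.Lib.P037.Rect
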