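import Vale.Agent.Lib.P037.Rect.Main
import Vale.Agent.Lib.P037.Rect.Core
import Vale.Agent.Lib.P037.Rect.Sort
import Vale.Agent.Lib.P037.Blow.Main
import Vale.Agent.Lib.P037.BV.Transpose

/-!
P037 Rect: every pattern, hosts with few distinct rows / bounded variation.  Final assembly.
-/

namespace Vale.Agent.Lib.P037.Rect

open Vale.Agent.Lib.P037 Vale.Agent.Lib.P037.BV Vale.Agent.Lib.P037.Blow

/-- counting core (port of `Blow.count_core`) -/
theorem count_coreR {r c k n : ℕ} (hn : 1 ≤ n) (H0 : Fin r → Fin c → Bool)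
    (φ : Fin k → Fin r) (ψ : Fin k → Fin c) (hφ : Monotone φ) (hφs : Function.Surjective φ)
    (hψ : Monotone ψ) (hψs : Function.Surjective ψ) (A : Fin n → Fin n → Bool) (δ : ℝ)
    (hδ0 : 0 ≤ δ) (hδ : δ * (n : ℝ) ^ (r + c) ≤ (numCopiesR H0 A : ℝ)) :
    δ ^ (2 ^ (2 * k - (r + c))) * (n : ℝ) ^ (2 * k) * n
      ≤ ((k.factorial : ℝ) ^ 2 * (numCopies (fun i j => H0 (φ i) (ψ j)) A : ℝ)) * n
        + 2 * (k : ℝ) ^ 2 * (n : ℝ) ^ (2 * k) := by
  have : Nonempty (Fin n) := ⟨⟨0, hn⟩⟩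
  have hsurj : Function.Surjective (Sum.map φ ψ) := Function.Surjective.sumMap hφs hψs
  have hcardI : Fintype.card (Fin r ⊕ Fin c) = r + c := by simp
  have hcardJ : Fintype.card (Fin k ⊕ Fin k) = 2 * k := by
    simp [two_mul]
  have h1 := GS_dens (X := Fin n) (Sum.map φ ψ) hsurj (copySetR H0 A) δ hδ0
    (by rw [hcardI, copySetR_ncard, Fintype.card_fin]; exact hδ)
  rw [hcardI, hcardJ, Fintype.card_fin] at h1
  set G := GS (Sum.map φ ψ) (copySetR H0 A) Set.univ with hG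
  set G1 := {g : (Fin k ⊕ Fin k) → Fin n | g ∈ G ∧
        (Function.Injective (g ∘ Sum.inl) ∧ Function.Injective (g ∘ Sum.inr))} with hG1
  set G2 := {g : (Fin k ⊕ Fin k) → Fin n |
        ¬ (Function.Injective (g ∘ Sum.inl) ∧ Function.Injective (g ∘ Sum.inr))} with hG2
  have hsub : G ⊆ G1 ∪ G2 := by
    intro g hg
    by_cases hh : (Function.Injective (g ∘ Sum.inl) ∧ Function.Injective (g ∘ Sum.inr))
    · exact Or.inl ⟨hg, hh⟩
    · exact Or.inr hh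
  have h2 : G.ncard ≤ G1.ncard + G2.ncard :=
    (Set.ncard_le_ncard hsub (Set.toFinite _)).trans (Set.ncard_union_le _ _)
  have h3 : G1.ncard ≤ (k.factorial) ^ 2 * numCopies (fun i j => H0 (φ i) (ψ j)) A :=
    sorted_countR H0 φ ψ hφ hφs hψ hψs A
  have h4 : G2.ncard * n ≤ 2 * k ^ 2 * n ^ (2 * k) := degenerate_count k n
  have h2' : (G.ncard : ℝ) ≤ (G1.ncard : ℝ) + (G2.ncard : ℝ) := by exact_mod_cast h2
  have h3' : (G1.ncard : ℝ)
      ≤ (k.factorial : ℝ) ^ 2 * (numCopies (fun i j => H0 (φ i) (ψ j)) A : ℝ) := by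
    exact_mod_cast h3
  have h4' : (G2.ncard : ℝ) * n ≤ 2 * (k : ℝ) ^ 2 * (n : ℝ) ^ (2 * k) := by exact_mod_cast h4
  have hn0 : (0 : ℝ) ≤ n := Nat.cast_nonneg n
  calc δ ^ (2 ^ (2 * k - (r + c))) * (n : ℝ) ^ (2 * k) * n
      ≤ (G.ncard : ℝ) * n := mul_le_mul_of_nonneg_right h1 hn0
    _ ≤ ((G1.ncard : ℝ) + (G2.ncard : ℝ)) * n := mul_le_mul_of_nonneg_right h2' hn0
    _ = (G1.ncard : ℝ) * n + (G2.ncard : ℝ) * n := by ring
    _ ≤ _ := add_le_add (mul_le_mul_of_nonneg_right h3' hn0) h4'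

/-- many copies of the core give many copies of the pattern, in the same host -/
theorem transfer_pow {r c k n : ℕ} (hn : 1 ≤ n) (H0 : Fin r → Fin c → Bool)
    (φ : Fin k → Fin r) (ψ : Fin k → Fin c) (hφ : Monotone φ) (hφs : Function.Surjective φ)
    (hψ : Monotone ψ) (hψs : Function.Surjective ψ) (A : Fin n → Fin n → Bool) (ε : ℝ)
    (hε : 0 < ε) (hfar : IsFar (fun i j => H0 (φ i) (ψ j)) A ε)
    (c1 x : ℝ) (E : ℕ) (hc0 : 0 < c1) (hc1 : c1 ≤ 1) (hx0 : 0 < x) (hx1 : x ≤ 1)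
    (hδ : (c1 * x ^ E) * (n : ℝ) ^ (r + c) ≤ (numCopiesR H0 A : ℝ)) :
    c1 ^ (2 ^ (2 * k - (r + c)) * (2 * k + 1))
        / (2 * (k.factorial : ℝ) ^ 2 * (4 * (k : ℝ) ^ 2 + 1) ^ (2 * k))
        * x ^ (E * (2 ^ (2 * k - (r + c)) * (2 * k + 1))) * (n : ℝ) ^ (2 * k)
      ≤ (numCopies (fun i j => H0 (φ i) (ψ j)) A : ℝ) := by
  set Q : ℕ := 2 ^ (2 * k - (r + c)) with hQ
  set F : ℝ := (k.factorial : ℝ) ^ 2 with hF
  have hF1 : 1 ≤ F := by
    have : (1 : ℝ) ≤ (k.factorial : ℝ) := by exact_mod_cast Nat.succ_le_of_lt k.factorial_pos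
    exact one_le_pow₀ this
  set δ : ℝ := c1 * x ^ E with hδdef
  have hδpos : 0 < δ := by positivity
  have hδ1 : δ ≤ 1 := by
    calc δ = c1 * x ^ E := rfl
      _ ≤ 1 * 1 := mul_le_mul hc1 (pow_le_one₀ hx0.le hx1) (by positivity) (by norm_num)
      _ = 1 := by norm_num
  have hN1 : 1 ≤ numCopies (fun i j => H0 (φ i) (ψ j)) A :=
    one_le_numCopies_of_isFar _ A ε hn hε hfar
  have hcore := count_coreR hn H0 φ ψ hφ hφs hψ hψs A δ hδpos.le hδ
  have hfin := final_arith k (δ ^ Q) F (numCopies (fun i j => H0 (φ i) (ψ j)) A : ℝ) (n : ℝ)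
    (by positivity) (pow_le_one₀ hδpos.le hδ1) hF1 (by exact_mod_cast hN1)
    (by exact_mod_cast hn) hcore
  have hpow : c1 ^ (Q * (2 * k + 1)) * x ^ (E * (Q * (2 * k + 1))) = (δ ^ Q) ^ (2 * k + 1) := by
    rw [← pow_mul, hδdef, mul_pow, ← pow_mul]
  calc c1 ^ (Q * (2 * k + 1)) / (2 * F * (4 * (k : ℝ) ^ 2 + 1) ^ (2 * k))
        * x ^ (E * (Q * (2 * k + 1))) * (n : ℝ) ^ (2 * k)
      = (δ ^ Q) ^ (2 * k + 1) / (2 * F * (4 * (k : ℝ) ^ 2 + 1) ^ (2 * k)) * (n : ℝ) ^ (2 * k) := by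
        rw [← hpow]; ring
    _ ≤ _ := hfin

/-- every pattern, hosts with at most `T` distinct rows -/
theorem few_rows_all {k : ℕ} (hk : 1 ≤ k) (H : Fin k → Fin k → Bool) :
    ∃ (c0 : ℝ) (C : ℕ), 0 < c0 ∧ ∀ n T : ℕ, 1 ≤ n → 1 ≤ T → ∀ (A : Fin n → Fin n → Bool)
      (t : Fin n → Fin T), (∀ i i', t i = t i' → A i = A i') →
      ∀ ε : ℝ, 0 < ε → ε < 1 → IsFar H A ε →
      c0 * (ε / T) ^ C * (n : ℝ) ^ (2 * k) ≤ (numCopies H A : ℝ) := by
  obtain ⟨r, c, H0, φ, ψ, hr, hc, hH0, hφ, hφs, hψ, hψs, rfl⟩ := exists_core hk H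
  set K : ℝ := ((r + c : ℕ) : ℝ) with hK
  have hK1 : (1 : ℝ) ≤ K := by
    have : 1 ≤ r + c := by omega
    rw [hK]; exact_mod_cast this
  set c1 : ℝ := (1 / (2 * K)) ^ (r + c) with hc1
  have hc1pos : 0 < c1 := by positivity
  have hc1le : c1 ≤ 1 := by
    apply pow_le_one₀ (by positivity)
    rw [div_le_one (by positivity)]; linarith
  refine ⟨c1 ^ (2 ^ (2 * k - (r + c)) * (2 * k + 1))
        / (2 * (k.factorial : ℝ) ^ 2 * (4 * (k : ℝ) ^ 2 + 1) ^ (2 * k)),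
      (r * (r + c)) * (2 ^ (2 * k - (r + c)) * (2 * k + 1)), by positivity, ?_⟩
  intro n T hn hT A t ht ε hε hε1 hfar
  have hTR : (1 : ℝ) ≤ T := by exact_mod_cast hT
  have hx0 : 0 < ε / T := by positivity
  have hx1 : ε / T ≤ 1 := by
    rw [div_le_one (by linarith)]; linarith
  have hfar0 : IsFarR H0 A ε := isFarR_of_blow H0 φ ψ hφ hφs hψ hψs A ε hfar
  have h1 := few_rowsR hr hT hn H0 hH0 A t ht ε hε hε1 hfar0
  apply transfer_pow hn H0 φ ψ hφ hφs hψ hψs A ε hε hfar c1 (ε / T) (r * (r + c)) hc1pos hc1le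
    hx0 hx1
  refine le_trans ?_ h1
  apply mul_le_mul_of_nonneg_right _ (by positivity)
  rw [hc1, pow_mul, ← mul_pow]
  apply pow_le_pow_left₀ (by positivity)
  have h2 : (ε / T) ^ r ≤ ε / (T : ℝ) ^ r := by
    rw [div_pow]
    apply div_le_div_of_nonneg_right _ (by positivity)
    calc ε ^ r ≤ ε ^ 1 := pow_le_pow_of_le_one hε.le hε1.le hr
      _ = ε := pow_one ε
  calc 1 / (2 * K) * (ε / T) ^ r ≤ 1 / (2 * K) * (ε / (T : ℝ) ^ r) :=
        mul_le_mul_of_nonneg_left h2 (by positivity)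
    _ = ε / (2 * K * (T : ℝ) ^ r) := by
        field_simp

/-- every pattern, hosts with at most `V n` vertical changes -/
theorem bv_all {k : ℕ} (hk : 1 ≤ k) (H : Fin k → Fin k → Bool) :
    ∃ (c0 : ℝ) (C : ℕ), 0 < c0 ∧ ∀ n : ℕ, 1 ≤ n → ∀ (A : Fin n → Fin n → Bool) (V : ℝ), 0 ≤ V →
      (vchanges A : ℝ) ≤ V * n → ∀ ε : ℝ, 0 < ε → ε < 1 → IsFar H A ε →
      c0 * (ε / (V + 1)) ^ C * (n : ℝ) ^ (2 * k) ≤ (numCopies H A : ℝ) := by
  obtain ⟨r, c, H0, φ, ψ, hr, hc, hH0, hφ, hφs, hψ, hψs, rfl⟩ := exists_core hk H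
  set K : ℝ := ((r + c : ℕ) : ℝ) with hK
  have hK1 : (1 : ℝ) ≤ K := by
    have : 1 ≤ r + c := by omega
    rw [hK]; exact_mod_cast this
  set c2 : ℝ := 1 / (4 * K * 8 ^ r) with hc2
  have hc2pos : 0 < c2 := by positivity
  have h8 : (1 : ℝ) ≤ 8 ^ r := one_le_pow₀ (by norm_num)
  have hc2le : c2 ≤ 1 := by
    rw [hc2, div_le_one (by positivity)]
    nlinarith
  have h2r : (1 : ℝ) ≤ 2 ^ (r + 1) := one_le_pow₀ (by norm_num)
  set c1 : ℝ := c2 ^ (r + c) / 2 ^ (r + 1) with hc1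
  have hc1pos : 0 < c1 := by positivity
  have hc1le : c1 ≤ 1 := by
    rw [hc1, div_le_one (by positivity)]
    exact (pow_le_one₀ hc2pos.le hc2le).trans h2r
  refine ⟨c1 ^ (2 ^ (2 * k - (r + c)) * (2 * k + 1))
        / (2 * (k.factorial : ℝ) ^ 2 * (4 * (k : ℝ) ^ 2 + 1) ^ (2 * k)),
      ((r + 1) * (r + c)) * (2 ^ (2 * k - (r + c)) * (2 * k + 1)), by positivity, ?_⟩
  intro n hn A V hV hVA ε hε hε1 hfar
  have hV1 : (1 : ℝ) ≤ V + 1 := by linarith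
  have hx0 : 0 < ε / (V + 1) := by positivity
  have hx1 : ε / (V + 1) ≤ 1 := by
    rw [div_le_one (by linarith)]; linarith
  have hfar0 : IsFarR H0 A ε := isFarR_of_blow H0 φ ψ hφ hφs hψ hψs A ε hfar
  have h1 := bv_hostsR hr hn H0 hH0 A V hV hVA ε hε hε1 hfar0
  apply transfer_pow hn H0 φ ψ hφ hφs hψ hψs A ε hε hfar c1 (ε / (V + 1)) ((r + 1) * (r + c))
    hc1pos hc1le hx0 hx1
  refine le_trans ?_ h1
  apply mul_le_mul_of_nonneg_right _ (by positivity)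
  have h3 : c1 * (ε / (V + 1)) ^ ((r + 1) * (r + c))
      = (c2 * (ε / (V + 1)) ^ (r + 1)) ^ (r + c) / 2 ^ (r + 1) := by
    rw [hc1, pow_mul, mul_pow]; ring
  rw [h3]
  apply div_le_div_of_nonneg_right _ (by positivity)
  apply pow_le_pow_left₀ (by positivity)
  have h4 : c2 * (ε / (V + 1)) ^ (r + 1) = ε ^ (r + 1) / (4 * K * (8 * (V + 1)) ^ r * (V + 1)) := by
    rw [hc2, div_pow, mul_pow, pow_succ (V + 1) r]
    field_simp
  rw [h4]
  apply div_le_div_of_nonneg_left (by positivity) (by positivity)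
  have : 0 < 4 * K * (8 * (V + 1)) ^ r := by positivity
  nlinarith

/-- combination of two bounds -/
private theorem combine (c c' : ℝ) (C C' : ℕ) (x y N : ℝ) (hc : 0 < c) (hc' : 0 < c') (hx0 : 0 < x)
    (hx1 : x ≤ 1) (hy : 0 ≤ y) (h : c * x ^ C * y ≤ N ∨ c' * x ^ C' * y ≤ N) :
    min c c' * x ^ (max C C') * y ≤ N := by
  rcases h with h | h
  · refine le_trans ?_ h
    apply mul_le_mul_of_nonneg_right _ hy
    exact mul_le_mul (min_le_left _ _) (pow_le_pow_of_le_one hx0.le hx1 (le_max_left _ _))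
      (by positivity) hc.le
  · refine le_trans ?_ h
    apply mul_le_mul_of_nonneg_right _ hy
    exact mul_le_mul (min_le_right _ _) (pow_le_pow_of_le_one hx0.le hx1 (le_max_right _ _))
      (by positivity) hc'.le

/-- every pattern, hosts with at most `T` distinct rows or at most `T` distinct columns -/
theorem few_lines_all {k : ℕ} (hk : 1 ≤ k) (H : Fin k → Fin k → Bool) :
    ∃ (c0 : ℝ) (C : ℕ), 0 < c0 ∧ ∀ n T : ℕ, 1 ≤ n → 1 ≤ T → ∀ (A : Fin n → Fin n → Bool)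
      (t : Fin n → Fin T),
      ((∀ i i', t i = t i' → ∀ j, A i j = A i' j) ∨ (∀ j j', t j = t j' → ∀ i, A i j = A i j')) →
      ∀ ε : ℝ, 0 < ε → ε < 1 → IsFar H A ε →
      c0 * (ε / T) ^ C * (n : ℝ) ^ (2 * k) ≤ (numCopies H A : ℝ) := by
  obtain ⟨c, C, hc, h⟩ := few_rows_all hk H
  obtain ⟨c', C', hc', h'⟩ := few_rows_all hk (tr H)
  refine ⟨min c c', max C C', lt_min hc hc', ?_⟩
  intro n T hn hT A t ht ε hε hε1 hfar
  have hTR : (1 : ℝ) ≤ T := by exact_mod_cast hT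
  have hx0 : 0 < ε / T := by positivity
  have hx1 : ε / T ≤ 1 := by
    rw [div_le_one (by linarith)]; linarith
  apply combine c c' C C' _ _ _ hc hc' hx0 hx1 (by positivity)
  rcases ht with ht | ht
  · exact Or.inl (h n T hn hT A t (fun i i' e => funext (ht i i' e)) ε hε hε1 hfar)
  · right
    rw [← numCopies_tr H A]
    exact h' n T hn hT (tr A) t (fun j j' e => funext (fun i => ht j j' e i)) ε hε hε1
      (isFar_tr H A ε hfar)

/-- every pattern, hosts with at most `V n` vertical or at most `V n` horizontal changes -/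
theorem bv_all_sym {k : ℕ} (hk : 1 ≤ k) (H : Fin k → Fin k → Bool) :
    ∃ (c0 : ℝ) (C : ℕ), 0 < c0 ∧ ∀ n : ℕ, 1 ≤ n → ∀ (A : Fin n → Fin n → Bool) (V : ℝ), 0 ≤ V →
      ((vchanges A : ℝ) ≤ V * n ∨ (vchanges (fun i j => A j i) : ℝ) ≤ V * n) →
      ∀ ε : ℝ, 0 < ε → ε < 1 → IsFar H A ε →
      c0 * (ε / (V + 1)) ^ C * (n : ℝ) ^ (2 * k) ≤ (numCopies H A : ℝ) := by
  obtain ⟨c, C, hc, h⟩ := bv_all hk H
  obtain ⟨c', C', hc', h'⟩ := bv_all hk (tr H)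
  refine ⟨min c c', max C C', lt_min hc hc', ?_⟩
  intro n hn A V hV hVA ε hε hε1 hfar
  have hx0 : 0 < ε / (V + 1) := by positivity
  have hx1 : ε / (V + 1) ≤ 1 := by
    rw [div_le_one (by linarith)]; linarith
  apply combine c c' C C' _ _ _ hc hc' hx0 hx1 (by positivity)
  rcases hVA with hVA | hVA
  · exact Or.inl (h n hn A V hV hVA ε hε hε1 hfar)
  · right
    rw [← numCopies_tr H A]
    exact h' n hn (tr A) V hV hVA ε hε hε1 (isFar_tr H A ε hfar)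

end Vale.Agent.Lib.P037.Rect
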