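import Vale.Agent.Lib.P037.Rect.FewRowsNat
import Vale.Agent.Lib.P037.Rect.AvgCopies
import Vale.Agent.Lib.P037.Rect.BlowFar
import Vale.Agent.Lib.P037.BV.AvgDiff

/-!
P037 Rect: hosts with few distinct rows, hosts of bounded vertical variation (rectangular patterns).
Port of `BV/Main.lean`.
-/

namespace Vale.Agent.Lib.P037.Rect

open Vale.Agent.Lib.P037 Vale.Agent.Lib.P037.BV

/-- polynomial removal in hosts with at most `T` distinct rows -/
theorem few_rowsR {r c n T : ℕ} (hr : 1 ≤ r) (hT : 1 ≤ T) (hn : 1 ≤ n)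
    (H : Fin r → Fin c → Bool) (hH : UnfoldableR H)
    (A : Fin n → Fin n → Bool) (t : Fin n → Fin T) (ht : ∀ i i', t i = t i' → A i = A i')
    (ε : ℝ) (hε : 0 < ε) (hε1 : ε < 1) (hfar : IsFarR H A ε) :
    (ε / (2 * ((r + c : ℕ) : ℝ) * (T : ℝ) ^ r)) ^ (r + c) * (n : ℝ) ^ (r + c)
      ≤ (numCopiesR H A : ℝ) := by
  set k : ℕ := r + c with hkdef
  have hk : 1 ≤ k := by omega
  have hkR : (1 : ℝ) ≤ k := by exact_mod_cast hk
  have hTR : (1 : ℝ) ≤ T := by exact_mod_cast hT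
  have hnR : (1 : ℝ) ≤ n := by exact_mod_cast hn
  have hTk : (0 : ℝ) < (T : ℝ) ^ r := by positivity
  set X : ℝ := ε * n / (k * (T : ℝ) ^ r) with hX
  have hXpos : 0 < X := by positivity
  have hXmul : (T : ℝ) ^ r * (k * X) = ε * n := by
    rw [hX]; field_simp
  set w : ℕ := ⌈X⌉₊ - 1 with hw
  have hceil : 1 ≤ ⌈X⌉₊ := Nat.one_le_iff_ne_zero.mpr (by
    intro h0
    have := Nat.ceil_eq_zero.mp h0
    linarith)
  have hw1 : ((w : ℕ) : ℝ) + 1 = (⌈X⌉₊ : ℝ) := by
    have : w + 1 = ⌈X⌉₊ := by omega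
    exact_mod_cast this
  have hwlt : (w : ℝ) < X := by
    have := Nat.ceil_lt_add_one hXpos.le
    linarith
  have hwge : X - 1 ≤ (w : ℝ) := by
    have := Nat.le_ceil X
    linarith
  have hprod : ((T ^ r * (k * w) : ℕ) : ℝ) < ε * n := by
    push_cast
    rw [← hXmul]
    have : (k : ℝ) * w < k * X := by
      apply mul_lt_mul_of_pos_left hwlt; linarith
    exact mul_lt_mul_of_pos_left this hTk
  have hwn : T ^ r * (k * w) < n := by
    have : ((T ^ r * (k * w) : ℕ) : ℝ) < n := by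
      calc ((T ^ r * (k * w) : ℕ) : ℝ) < ε * n := hprod
        _ ≤ 1 * n := by apply mul_le_mul_of_nonneg_right hε1.le; linarith
        _ = n := one_mul _
    exact_mod_cast this
  have hN1 : 1 ≤ numCopiesR H A := one_le_numCopiesR_of_isFarR H A ε hn hε hfar
  have hN1R : (1 : ℝ) ≤ (numCopiesR H A : ℝ) := by exact_mod_cast hN1
  have hmain : w ^ k ≤ numCopiesR H A := by
    rcases few_rows_natR H hH A t ht w hwn with h | ⟨B, hB, hd⟩
    · exact h
    · exfalso
      have h1 := hfar B hB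
      have h2 : (numDiff A B : ℝ) ≤ ((T ^ r * (k * w) : ℕ) : ℝ) * n := by exact_mod_cast hd
      have h3 : ((T ^ r * (k * w) : ℕ) : ℝ) * n < ε * n * n := by
        apply mul_lt_mul_of_pos_right hprod; linarith
      nlinarith
  have hmainR : (w : ℝ) ^ k ≤ (numCopiesR H A : ℝ) := by exact_mod_cast hmain
  have hrew : (ε / (2 * (k : ℝ) * (T : ℝ) ^ r)) ^ k * (n : ℝ) ^ k = (X / 2) ^ k := by
    rw [← mul_pow, hX]
    congr 1
    field_simp
  rw [hrew]
  by_cases hX2 : X ≤ 2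
  · calc (X / 2) ^ k ≤ 1 := by
          apply pow_le_one₀ (by positivity); linarith
      _ ≤ _ := hN1R
  · have hX2 : 2 < X := not_le.mp hX2
    calc (X / 2) ^ k ≤ (w : ℝ) ^ k := by
          apply pow_le_pow_left₀ (by positivity); linarith
      _ ≤ _ := hmainR

/-- a good choice of representatives -/
theorem exists_good_repR {r c n : ℕ} (L : ℕ) (hL : 0 < L) (hLn : L ≤ n) (H : Fin r → Fin c → Bool)
    (hH : UnfoldableR H) (A : Fin n → Fin n → Bool) (hN : 1 ≤ numCopiesR H A) :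
    ∃ s : Fin (n / L) → Fin L,
      numDiff A (col L hL hLn A s) ≤ 2 * (L * (vchanges A + n)) ∧
      numCopiesR H (col L hL hLn A s) ≤ 2 * (2 ^ r * numCopiesR H A) := by
  set P : ℕ := L ^ (n / L) with hP
  set D : ℕ := L * (vchanges A + n) with hD
  set M : ℕ := 2 ^ r * numCopiesR H A with hM
  have hDpos : 0 < D := by
    have : 0 < n := lt_of_lt_of_le hL hLn
    positivity
  have hMpos : 0 < M := by positivity
  have hd : ∑ s : Fin (n / L) → Fin L, numDiff A (col L hL hLn A s) ≤ P * D := by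
    have h1 := sum_numDiff_mul L hL hLn A
    have h2 := sum_mis_le L hL hLn A
    have h3 : (∑ s : Fin (n / L) → Fin L, numDiff A (col L hL hLn A s)) * L ≤ (P * D) * L := by
      rw [h1]
      calc L ^ (n / L) * ∑ i, ∑ j, mis L hL hLn A i j
          ≤ L ^ (n / L) * (L ^ 2 * (vchanges A + n)) := Nat.mul_le_mul_left _ h2
        _ = (P * D) * L := by rw [hP, hD]; ring
    exact Nat.le_of_mul_le_mul_right h3 hL
  have hc : ∑ s : Fin (n / L) → Fin L, numCopiesR H (col L hL hLn A s) ≤ P * M := by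
    have h1 := sum_repCopies_mulR L hL hLn H A
    calc ∑ s : Fin (n / L) → Fin L, numCopiesR H (col L hL hLn A s)
        ≤ ∑ s : Fin (n / L) → Fin L, (2 * L) ^ r * repCopiesR L H A s :=
          Finset.sum_le_sum (fun s _ => numCopies_col_leR L hL hLn H hH A s)
      _ = 2 ^ r * ((∑ s : Fin (n / L) → Fin L, repCopiesR L H A s) * L ^ r) := by
          rw [← Finset.mul_sum, mul_pow]; ring
      _ ≤ 2 ^ r * (L ^ (n / L) * numCopiesR H A) := Nat.mul_le_mul_left _ h1
      _ = P * M := by rw [hP, hM]; ring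
  have hcard : (Finset.univ : Finset (Fin (n / L) → Fin L)).card = P := by
    rw [Finset.card_univ, Fintype.card_fun, Fintype.card_fin, Fintype.card_fin]
  have hne : (Finset.univ : Finset (Fin (n / L) → Fin L)).Nonempty := by
    rw [← Finset.card_pos, hcard]; positivity
  have hsum : ∑ s : Fin (n / L) → Fin L,
      (numDiff A (col L hL hLn A s) * M + numCopiesR H (col L hL hLn A s) * D)
      ≤ ∑ _s : Fin (n / L) → Fin L, 2 * D * M := by
    rw [Finset.sum_add_distrib, ← Finset.sum_mul, ← Finset.sum_mul, Finset.sum_const, hcard,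
      smul_eq_mul]
    calc (∑ s : Fin (n / L) → Fin L, numDiff A (col L hL hLn A s)) * M
          + (∑ s : Fin (n / L) → Fin L, numCopiesR H (col L hL hLn A s)) * D
        ≤ (P * D) * M + (P * M) * D :=
          Nat.add_le_add (Nat.mul_le_mul_right _ hd) (Nat.mul_le_mul_right _ hc)
      _ = P * (2 * D * M) := by ring
  obtain ⟨s, -, hs⟩ := Finset.exists_le_of_sum_le hne hsum
  refine ⟨s, ?_, ?_⟩
  · have : numDiff A (col L hL hLn A s) * M ≤ (2 * D) * M := by
      calc _ ≤ _ := Nat.le_add_right _ _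
        _ ≤ _ := hs
    exact Nat.le_of_mul_le_mul_right this hMpos
  · have : numCopiesR H (col L hL hLn A s) * D ≤ (2 * M) * D := by
      calc _ ≤ _ := Nat.le_add_left _ _
        _ ≤ 2 * D * M := hs
        _ = _ := by ring
    exact Nat.le_of_mul_le_mul_right this hDpos

/-- comparison of the constants -/
private theorem const_le {r : ℕ} (K : ℝ) (hK : 1 ≤ K) (ε W T : ℝ) (hε : 0 < ε) (hT : 0 < T)
    (hTW : ε * T ≤ W) :
    ε ^ (r + 1) / (4 * K * W ^ r) ≤ ε / (4 * K * T ^ r) := by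
  have hW : 0 < W := lt_of_lt_of_le (by positivity) hTW
  have h1 : (ε * T) ^ r ≤ W ^ r := pow_le_pow_left₀ (by positivity) hTW r
  rw [div_le_div_iff₀ (by positivity) (by positivity)]
  have h2 : ε ^ (r + 1) * (4 * K * T ^ r) = ε * (4 * K) * (ε * T) ^ r := by
    rw [mul_pow]; ring
  rw [h2]
  have h3 : ε * (4 * K * W ^ r) = ε * (4 * K) * W ^ r := by ring
  rw [h3]
  exact mul_le_mul_of_nonneg_left h1 (by positivity)

/-- polynomial removal in hosts with at most `V n` vertical changes -/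
theorem bv_hostsR {r c n : ℕ} (hr : 1 ≤ r) (hn : 1 ≤ n)
    (H : Fin r → Fin c → Bool) (hH : UnfoldableR H)
    (A : Fin n → Fin n → Bool) (V : ℝ) (hV : 0 ≤ V) (hVA : (vchanges A : ℝ) ≤ V * n)
    (ε : ℝ) (hε : 0 < ε) (hε1 : ε < 1) (hfar : IsFarR H A ε) :
    (ε ^ (r + 1) / (4 * ((r + c : ℕ) : ℝ) * (8 * (V + 1)) ^ r)) ^ (r + c) / 2 ^ (r + 1)
        * (n : ℝ) ^ (r + c)
      ≤ (numCopiesR H A : ℝ) := by
  set k : ℕ := r + c with hkdef
  have hk : 1 ≤ k := by omega
  have hkR : (1 : ℝ) ≤ k := by exact_mod_cast hk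
  have hnR : (1 : ℝ) ≤ n := by exact_mod_cast hn
  have hN1 : 1 ≤ numCopiesR H A := one_le_numCopiesR_of_isFarR H A ε hn hε hfar
  have hNnn : (0 : ℝ) ≤ (numCopiesR H A : ℝ) := Nat.cast_nonneg _
  set c0 : ℝ := ε ^ (r + 1) / (4 * (k : ℝ) * (8 * (V + 1)) ^ r) with hc0
  have hc0nn : 0 ≤ c0 := by positivity
  have h2k : (1 : ℝ) ≤ 2 ^ (r + 1) := one_le_pow₀ (by norm_num)
  suffices hsuff : c0 ^ k * (n : ℝ) ^ k ≤ 2 ^ (r + 1) * (numCopiesR H A : ℝ) by
    have : c0 ^ k / 2 ^ (r + 1) * (n : ℝ) ^ k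
        = (c0 ^ k * (n : ℝ) ^ k) / 2 ^ (r + 1) := by ring
    rw [this, div_le_iff₀ (by positivity)]
    linarith
  set Y : ℝ := ε * n / (4 * (V + 1)) with hY
  have hYpos : 0 < Y := by positivity
  have hYmul : Y * (4 * (V + 1)) = ε * n := by
    rw [hY]; field_simp
  by_cases hY1 : Y < 1
  · have hεn : ε * n ≤ 8 * (V + 1) := by nlinarith
    have h1 := few_rowsR hr hn hn H hH A id (fun i i' h => by
      have : i = i' := h
      rw [this]) ε hε hε1 hfar
    have h2 : c0 ≤ ε / (2 * (k : ℝ) * (n : ℝ) ^ r) := by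
      calc c0 ≤ ε / (4 * (k : ℝ) * (n : ℝ) ^ r) :=
            const_le (k : ℝ) hkR ε (8 * (V + 1)) n hε (by linarith) hεn
        _ ≤ ε / (2 * (k : ℝ) * (n : ℝ) ^ r) := by
            apply div_le_div_of_nonneg_left hε.le (by positivity)
            have : (0 : ℝ) ≤ k * (n : ℝ) ^ r := by positivity
            nlinarith
    calc c0 ^ k * (n : ℝ) ^ k
        ≤ (ε / (2 * (k : ℝ) * (n : ℝ) ^ r)) ^ k * (n : ℝ) ^ k := by
          apply mul_le_mul_of_nonneg_right _ (by positivity)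
          exact pow_le_pow_left₀ hc0nn h2 _
      _ ≤ (numCopiesR H A : ℝ) := h1
      _ ≤ 2 ^ (r + 1) * (numCopiesR H A : ℝ) := by nlinarith
  · have hY1 : 1 ≤ Y := not_lt.mp hY1
    set L : ℕ := ⌊Y⌋₊ with hLdef
    have hL1 : 1 ≤ L := Nat.le_floor (by exact_mod_cast hY1)
    have hL : 0 < L := hL1
    have hLY : (L : ℝ) ≤ Y := Nat.floor_le hYpos.le
    have hYL : Y < (L : ℝ) + 1 := Nat.lt_floor_add_one Y
    have hL1R : (1 : ℝ) ≤ L := by exact_mod_cast hL1
    have hYn : Y ≤ n := by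
      have : Y * (4 * (V + 1)) ≤ n * (4 * (V + 1)) := by
        rw [hYmul]; nlinarith
      exact le_of_mul_le_mul_right this (by positivity)
    have hLn : L ≤ n := by
      have : (L : ℝ) ≤ n := hLY.trans hYn
      exact_mod_cast this
    obtain ⟨s, hs1, hs2⟩ := exists_good_repR L hL hLn H hH A hN1
    set A' := col L hL hLn A s with hA'
    have hs1R : (numDiff A A' : ℝ) ≤ ε / 2 * (n : ℝ) ^ 2 := by
      have h1 : (numDiff A A' : ℝ) ≤ 2 * ((L : ℝ) * ((vchanges A : ℝ) + n)) := by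
        exact_mod_cast hs1
      have h2 : (vchanges A : ℝ) + n ≤ (V + 1) * n := by linarith
      have h3 : (L : ℝ) * ((vchanges A : ℝ) + n) ≤ Y * ((V + 1) * n) :=
        mul_le_mul hLY h2 (by positivity) hYpos.le
      have h4 : Y * ((V + 1) * n) = ε * n * n / 4 := by
        have : Y * ((V + 1) * n) = (Y * (4 * (V + 1))) * n / 4 := by ring
        rw [this, hYmul]
      have h5 : ε / 2 * (n : ℝ) ^ 2 = 2 * (ε * n * n / 4) := by ring
      rw [h5, ← h4]
      linarith
    have hfar' : IsFarR H A' (ε / 2) := by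
      intro B hB
      have h1 := hfar B hB
      have h2 : (numDiff A B : ℝ) ≤ (numDiff A A' : ℝ) + (numDiff A' B : ℝ) := by
        exact_mod_cast numDiff_triangle A A' B
      nlinarith
    have hTpos : 1 ≤ n / L := Nat.div_pos hLn hL
    have hTR : ((n / L : ℕ) : ℝ) ≤ (n : ℝ) / L := Nat.cast_div_le
    have hεT : ε * ((n / L : ℕ) : ℝ) ≤ 8 * (V + 1) := by
      have h1 : Y ≤ 2 * L := by linarith
      have h2 : ε * ((n : ℝ) / L) ≤ 8 * (V + 1) := by
        rw [← mul_div_assoc, div_le_iff₀ (by positivity), ← hYmul]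
        have : 0 ≤ V + 1 := by linarith
        nlinarith
      calc ε * ((n / L : ℕ) : ℝ) ≤ ε * ((n : ℝ) / L) := mul_le_mul_of_nonneg_left hTR hε.le
        _ ≤ _ := h2
    have h1 := few_rowsR hr hTpos hn H hH A' (blk n L hL hLn) (fun i i' h => by
      funext j
      simp only [hA', col, h]) (ε / 2) (by linarith) (by linarith) hfar'
    have hTposR : (0 : ℝ) < ((n / L : ℕ) : ℝ) := by exact_mod_cast hTpos
    have h2 : c0 ≤ ε / 2 / (2 * (k : ℝ) * ((n / L : ℕ) : ℝ) ^ r) := by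
      calc c0 ≤ ε / (4 * (k : ℝ) * ((n / L : ℕ) : ℝ) ^ r) :=
            const_le (k : ℝ) hkR ε (8 * (V + 1)) _ hε hTposR hεT
        _ = ε / 2 / (2 * (k : ℝ) * ((n / L : ℕ) : ℝ) ^ r) := by
            rw [div_div]; congr 1; ring
    calc c0 ^ k * (n : ℝ) ^ k
        ≤ (ε / 2 / (2 * (k : ℝ) * ((n / L : ℕ) : ℝ) ^ r)) ^ k * (n : ℝ) ^ k := by
          apply mul_le_mul_of_nonneg_right _ (by positivity)
          exact pow_le_pow_left₀ hc0nn h2 _
      _ ≤ (numCopiesR H A' : ℝ) := h1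
      _ ≤ 2 ^ (r + 1) * (numCopiesR H A : ℝ) := by
          have : (numCopiesR H A' : ℝ) ≤ 2 * (2 ^ r * (numCopiesR H A : ℝ)) := by
            exact_mod_cast hs2
          calc _ ≤ _ := this
            _ = _ := by ring

end Vale.Agent.Lib.P037.Rect
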